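import Vale.Agent.P032.H800.W32.A
import Vale.Agent.P032.H800.W32.B
import Vale.Agent.P032.H800.W32.C
import Vale.Agent.P032.Words6.H358.TreeD

/-!
# P032: the tree of modes over the box tables, graph 32
-/

namespace Vale.Agent.P032.H800.Wt

open Vale.Agent.P032.Words.Trie Vale.Agent.P032.Words6.H46 Vale.Agent.P032.Words6.H358

theorem tree32 : TreeOK [3, 5, 9, 6, 10, 20, 40, 48] :=
  treeOK_of_three (c := 7)
    ⟨Vale.Agent.P032.H800.W32.A.D, Vale.Agent.P032.H800.W32.A.tab, by decide +kernel, by decide +kernel, rfl⟩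
    ⟨Vale.Agent.P032.H800.W32.B.D, Vale.Agent.P032.H800.W32.B.tab, by decide +kernel, by decide +kernel, rfl⟩
    ⟨Vale.Agent.P032.H800.W32.C.D, Vale.Agent.P032.H800.W32.C.tab, by decide +kernel, by decide +kernel, rfl⟩

end Vale.Agent.P032.H800.Wt
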